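import Vale.Agent.Lib.P356.Main

/-!
# P356: the area law for every region whose inside terms commute with the other terms

For a finite-range Hamiltonian `H = ∑_X h_X` on `Λ_L = {1,…,L}²` (local dimension `q`, range `R`),
a unit eigenvector `Ω` of `H` for a simple eigenvalue, and a region `A` such that every term
`h_X` with `X ⊆ A` commutes with every term `h_Y` with `Y ⊄ A` (in particular: every region, if
all terms commute pairwise):  `S_Ω(A) ≤ 2 (2R+1)² log q · |∂A|`.
-/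

namespace Vale.Agent.Results.P356.CommutingCut

open Vale.Agent.P356
open scoped BigOperators Matrix

theorem result (L q R : ℕ)
    (h : Finset (Site L) → Matrix (Site L → Fin q) (Site L → Fin q) ℂ)
    (hherm : ∀ X, (h X).IsHermitian) (hact : ∀ X, ActsOn X (h X))
    (hrange : ∀ X, h X ≠ 0 → ∀ x ∈ X, ∀ y ∈ X, dist1 x y ≤ R)
    (E : ℝ) (Ω : (Site L → Fin q) → ℂ) (hnorm : ∑ σ, ‖Ω σ‖ ^ 2 = 1)
    (heig : (∑ X, h X) *ᵥ Ω = (E : ℂ) • Ω)
    (hsimple : ∀ ψ : (Site L → Fin q) → ℂ, (∑ X, h X) *ᵥ ψ = (E : ℂ) • ψ → ∃ c : ℂ, ψ = c • Ω)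
    (A : Finset (Site L))
    (hcomm : ∀ X Y, X ⊆ A → ¬ Y ⊆ A → Commute (h X) (h Y)) :
    entropy (reduced A Ω) (reduced_isHermitian A Ω)
      ≤ 2 * (2 * (R : ℝ) + 1) ^ 2 * Real.log q * ((edgeBoundary A).card : ℝ) :=
  area_law L q R h hherm hact hrange E Ω hnorm heig hsimple A hcomm

end Vale.Agent.Results.P356.CommutingCut
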