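import Vale.Agent.Lib.P356.Main
import Vale.Agent.Lib.P356.Gap

/-!
# P356: Q1 for admissible Hamiltonians with pairwise commuting terms

`H = ∑_X h_X` on `Λ_L = {1,…,L}²`, range `R`, pairwise commuting terms, spectral gap at least
`Δ > 0` above the eigenvalue `E₀` with unit eigenvector `Ω`
(`H - E₀ ≥ Δ (1 - |Ω⟩⟨Ω|)`).  Then `S_Ω(A) ≤ 2 (2R+1)² log q · |∂A|` for every region `A`.
-/

namespace Vale.Agent.Results.P356.GappedCommuting

open Vale.Agent.P356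
open scoped BigOperators Matrix ComplexOrder

theorem result (L q R : ℕ) (Δ : ℝ) (hΔ : 0 < Δ)
    (h : Finset (Site L) → Matrix (Site L → Fin q) (Site L → Fin q) ℂ)
    (hherm : ∀ X, (h X).IsHermitian) (hact : ∀ X, ActsOn X (h X))
    (hrange : ∀ X, h X ≠ 0 → ∀ x ∈ X, ∀ y ∈ X, dist1 x y ≤ R)
    (hcomm : ∀ X Y, Commute (h X) (h Y))
    (E₀ : ℝ) (Ω : (Site L → Fin q) → ℂ) (hnorm : ∑ σ, ‖Ω σ‖ ^ 2 = 1)
    (heig : (∑ X, h X) *ᵥ Ω = (E₀ : ℂ) • Ω)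
    (hgap : ((∑ X, h X) - (E₀ : ℂ) • (1 : Matrix (Site L → Fin q) (Site L → Fin q) ℂ)
      - (Δ : ℂ) • ((1 : Matrix (Site L → Fin q) (Site L → Fin q) ℂ)
          - Matrix.vecMulVec Ω (star Ω))).PosSemidef)
    (A : Finset (Site L)) :
    entropy (reduced A Ω) (reduced_isHermitian A Ω)
      ≤ 2 * (2 * (R : ℝ) + 1) ^ 2 * Real.log q * ((edgeBoundary A).card : ℝ) :=
  area_law L q R h hherm hact hrange E₀ Ω hnorm heig
    (fun ψ hψ => simple_of_gap _ E₀ Δ hΔ Ω hnorm hgap ψ hψ) A (fun X Y _ _ => hcomm X Y)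

end Vale.Agent.Results.P356.GappedCommuting
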