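import Vale.Agent.Lib.P356b.Disjoint
import Vale.Agent.Lib.P356b.Geometry

/-!
# P356: Schmidt rank and entropy across every cut whose crossing terms commute with all terms

In particular the area law, for all regions, for commuting admissible Hamiltonians, with the
explicit constant `(2 R + 1) ^ 2 * log q`, in the strong form of a bound for the Schmidt rank.
-/

namespace Vale.Agent.Results.P356.SchmidtRankCut

open Matrix Vale.Agent.Lib.P356b

/-- the terms of an admissible Hamiltonian of range `R` on the box (one term for each set `X` of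
sites; no bound on the norms of the terms is imposed) -/
structure Admissible (L q R : ℕ) (h : Finset (Site L) → Op (Site L) q) : Prop where
  herm : ∀ X, (h X).IsHermitian
  supp : ∀ X, SupportedOn X (h X)
  range : ∀ X, (∃ x ∈ X, ∃ y ∈ X, R < dist1 x y) → h X = 0

/-- `Ω` is a unit vector that spans the eigenspace of `H` at `E0` -/
structure SimpleEigen {L q : ℕ} (H : Op (Site L) q) (E0 : ℝ) (Ω : Conf (Site L) q → ℂ) : Prop where
  unit : ∑ τ, ‖Ω τ‖ ^ 2 = 1
  eigen : H *ᵥ Ω = (E0 : ℂ) • Ω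
  simple : ∀ ψ : Conf (Site L) q → ℂ, H *ᵥ ψ = (E0 : ℂ) • ψ → ∃ c : ℂ, ψ = c • Ω

/-- `X` contains a site of `A` and a site outside `A` -/
def Crosses {L : ℕ} (X A : Finset (Site L)) : Prop := (∃ x ∈ X, x ∈ A) ∧ ∃ y ∈ X, y ∉ A

/-- the Schmidt rank of `Ω` across the cut: the rank of the matrix `M α β = Ω (α on A, β off A)`,
which is also the rank of `ρ_A = M Mᴴ` -/
noncomputable def schmidtRank {L q : ℕ} (A : Finset (Site L)) (Ω : Conf (Site L) q → ℂ) : ℕ :=
  (bmat A Ω).rank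

/-- the entanglement entropy `S_Ω(A) = - Tr ρ_A log ρ_A`, where `ρ_A = M Mᴴ` and `M = bmat A Ω` -/
noncomputable def entropy {L q : ℕ} (A : Finset (Site L)) (Ω : Conf (Site L) q → ℂ) : ℝ :=
  entropyOf (bmat A Ω)

theorem crosses_of {L : ℕ} (A X : Finset (Site L)) (h1 : ¬ X ⊆ A) (h2 : ¬ X ⊆ Aᶜ) :
    Crosses X A := by
  obtain ⟨y, hy, hyA⟩ := Finset.not_subset.1 h1
  obtain ⟨x, hx, hxA⟩ := Finset.not_subset.1 h2
  exact ⟨⟨x, hx, by simpa using hxA⟩, ⟨y, hy, hyA⟩⟩

theorem support_crossing (L q R : ℕ) (h : Finset (Site L) → Op (Site L) q)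
    (hadm : Admissible L q R h) (A : Finset (Site L)) :
    ∀ X, ¬ X ⊆ A → ¬ X ⊆ Aᶜ → h X ≠ 0 → X ⊆ thick A R ∪ Aᶜ := by
  intro X h1 h2 h0 x hx
  obtain ⟨-, y, hy, hyA⟩ := crosses_of A X h1 h2
  by_cases hxA : x ∈ A
  · refine Finset.mem_union_left _ ?_
    unfold thick
    rw [Finset.mem_filter]
    refine ⟨hxA, y, hyA, ?_⟩
    by_contra hlt
    exact h0 (hadm.range X ⟨x, hx, y, hy, by omega⟩)
  · exact Finset.mem_union_right _ (Finset.mem_compl.2 hxA)

theorem card_cap {L : ℕ} (A : Finset (Site L)) (R : ℕ) :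
    (A ∩ (thick A R ∪ Aᶜ)).card ≤ (2 * R + 1) ^ 2 * (edgeBoundary A).card := by
  have hcap : A ∩ (thick A R ∪ Aᶜ) ⊆ thick A R := by
    intro x hx
    rw [Finset.mem_inter, Finset.mem_union] at hx
    rcases hx.2 with h1 | h1
    · exact h1
    · exact absurd hx.1 (Finset.mem_compl.1 h1)
  have := (Finset.card_le_card hcap).trans (card_thick_le A R)
  rwa [mul_comm] at this

theorem cut_bound (L q R : ℕ) (hq : 2 ≤ q) (h : Finset (Site L) → Op (Site L) q)
    (hadm : Admissible L q R h) (E0 : ℝ) (Ω : Conf (Site L) q → ℂ)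
    (hΩ : SimpleEigen (∑ X, h X) E0 Ω) (A : Finset (Site L))
    (hcomm : ∀ X Y, Crosses X A → Commute (h X) (h Y)) :
    schmidtRank A Ω ≤ q ^ ((2 * R + 1) ^ 2 * (edgeBoundary A).card) ∧
    entropy A Ω ≤ (2 * (R : ℝ) + 1) ^ 2 * Real.log q * ((edgeBoundary A).card : ℝ) := by
  have : NeZero q := ⟨by omega⟩
  have hne : Ω ≠ 0 := by
    intro h0
    have hu := hΩ.unit
    rw [h0] at hu
    simp at hu
  have hrank := rank_le_of_cut h hadm.herm hadm.supp A (thick A R ∪ Aᶜ)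
    (fun X Y h1 h2 => hcomm X Y (crosses_of A X h1 h2)) (support_crossing L q R h hadm A)
    Ω hne (E0 : ℂ) hΩ.eigen hΩ.simple
  have hmain := entropy_le_of_cut h hadm.herm hadm.supp A (thick A R ∪ Aᶜ)
    (fun X Y h1 h2 => hcomm X Y (crosses_of A X h1 h2)) (support_crossing L q R h hadm A)
    Ω hΩ.unit (E0 : ℂ) hΩ.eigen hΩ.simple
  refine ⟨hrank.trans (Nat.pow_le_pow_right (by omega) (card_cap A R)), ?_⟩
  have hcard : ((A ∩ (thick A R ∪ Aᶜ)).card : ℝ)
      ≤ (2 * (R : ℝ) + 1) ^ 2 * ((edgeBoundary A).card : ℝ) := by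
    exact_mod_cast card_cap A R
  have hlog : 0 ≤ Real.log q := Real.log_natCast_nonneg q
  unfold entropy
  calc entropyOf (bmat A Ω) ≤ ((A ∩ (thick A R ∪ Aᶜ)).card : ℝ) * Real.log q := hmain
    _ ≤ (2 * (R : ℝ) + 1) ^ 2 * ((edgeBoundary A).card : ℝ) * Real.log q :=
        mul_le_mul_of_nonneg_right hcard hlog
    _ = (2 * (R : ℝ) + 1) ^ 2 * Real.log q * ((edgeBoundary A).card : ℝ) := by ring

/-- Let `H = ∑ h X` be an admissible Hamiltonian of range `R` on the box `{1, …, L}²` with `q`-level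
sites and let `Ω` be a unit eigenvector for a simple eigenvalue.
(1) For every region `A` such that every term crossing the cut commutes with every term, the Schmidt
rank of `Ω` across the cut is at most `q ^ ((2 R + 1) ^ 2 |∂A|)`, and
`S_Ω(A) ≤ (2 R + 1) ^ 2 * log q * |∂A|`.
(2) If all the terms commute, this holds for every region `A`. -/
theorem result (L q R : ℕ) (hq : 2 ≤ q) (h : Finset (Site L) → Op (Site L) q)
    (hadm : Admissible L q R h) (E0 : ℝ) (Ω : Conf (Site L) q → ℂ)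
    (hΩ : SimpleEigen (∑ X, h X) E0 Ω) :
    (∀ A : Finset (Site L), (∀ X Y, Crosses X A → Commute (h X) (h Y)) →
      schmidtRank A Ω ≤ q ^ ((2 * R + 1) ^ 2 * (edgeBoundary A).card) ∧
      entropy A Ω ≤ (2 * (R : ℝ) + 1) ^ 2 * Real.log q * ((edgeBoundary A).card : ℝ)) ∧
    ((∀ X Y, Commute (h X) (h Y)) → ∀ A : Finset (Site L),
      schmidtRank A Ω ≤ q ^ ((2 * R + 1) ^ 2 * (edgeBoundary A).card) ∧
      entropy A Ω ≤ (2 * (R : ℝ) + 1) ^ 2 * Real.log q * ((edgeBoundary A).card : ℝ)) :=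
  ⟨fun A hc => cut_bound L q R hq h hadm E0 Ω hΩ A hc,
    fun hc A => cut_bound L q R hq h hadm E0 Ω hΩ A fun X Y _ => hc X Y⟩

end Vale.Agent.Results.P356.SchmidtRankCut
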